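import Mathlib

namespace Vale.Agent.Results.P038.AbelianCayley

open Finset
open scoped Pointwise

variable {G : Type*} [AddCommGroup G] [DecidableEq G]

/-- Scherk-Kemperman: if `0` has a unique representation in `A + B` then
`|A| + |B| - 1 ≤ |A + B|`. -/
lemma scherk (k : ℕ) : ∀ (A B : Finset G), B.card ≤ k → (0 : G) ∈ A → (0 : G) ∈ B →
    (∀ a ∈ A, ∀ b ∈ B, a + b = 0 → a = 0 ∧ b = 0) → A.card + B.card ≤ (A + B).card + 1 := by
  induction k with
  | zero =>
    intro A B hB _ h0B _
    have : B = ∅ := Finset.card_eq_zero.mp (Nat.le_zero.mp hB)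
    simp [this] at h0B
  | succ k ih =>
    intro A B hB h0A h0B huniq
    by_cases hB1 : ∃ b ∈ B, b ≠ 0
    · obtain ⟨b, hbB, hb0⟩ := hB1
      -- there is e in A with e + B not inside A
      have hex : ∃ e ∈ A, ∃ c ∈ B, e + c ∉ A := by
        by_contra hcon
        push Not at hcon
        have hmaps : Set.MapsTo (fun x => x + b) (A : Set G) (A : Set G) := by
          intro x hx
          exact hcon x hx b hbB
        have hinj : Set.InjOn (fun x => x + b) (A : Set G) := by
          intro x _ y _ hxy
          exact add_right_cancel hxy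
        have hsurj := Finset.surjOn_of_injOn_of_card_le (fun x => x + b) hmaps hinj le_rfl
        obtain ⟨a, haA, ha⟩ := hsurj h0A
        exact hb0 (huniq a haA b hbB ha).2
      obtain ⟨e, heA, c, hcB, hec⟩ := hex
      set A' := (addDysonETransform e (A, B)).1 with hA'
      set B' := (addDysonETransform e (A, B)).2 with hB'
      have hcard : A'.card + B'.card = A.card + B.card := addDysonETransform.card e (A, B)
      have hsub : A' + B' ⊆ A + B := addDysonETransform.subset e (A, B)
      have hA'def : A' = A ∪ (e +ᵥ B) := rfl
      have hB'def : B' = B ∩ (-e +ᵥ A) := rfl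
      have h0A' : (0 : G) ∈ A' := by
        rw [hA'def]
        exact Finset.mem_union_left _ h0A
      have h0B' : (0 : G) ∈ B' := by
        rw [hB'def, Finset.mem_inter]
        refine ⟨h0B, ?_⟩
        rw [Finset.mem_vadd_finset]
        exact ⟨e, heA, by simp⟩
      have hlt : B'.card < B.card := by
        apply Finset.card_lt_card
        rw [Finset.ssubset_iff_of_subset (by rw [hB'def]; exact Finset.inter_subset_left)]
        refine ⟨c, hcB, ?_⟩
        rw [hB'def, Finset.mem_inter, Finset.mem_vadd_finset]
        rintro ⟨_, a, haA, hac⟩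
        apply hec
        have : e + c = a := by
          rw [← hac]
          simp
        rw [this]
        exact haA
      have huniq' : ∀ a ∈ A', ∀ b ∈ B', a + b = 0 → a = 0 ∧ b = 0 := by
        intro a ha b' hb' hab
        rw [hB'def, Finset.mem_inter, Finset.mem_vadd_finset] at hb'
        obtain ⟨hb'B, a2, ha2A, ha2⟩ := hb'
        rw [hA'def, Finset.mem_union, Finset.mem_vadd_finset] at ha
        rcases ha with ha | ⟨b2, hb2B, hb2⟩
        · exact huniq a ha b' hb'B hab
        · have h1 : a2 + b2 = 0 := by
            rw [← hb2, ← ha2] at hab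
            simp only [vadd_eq_add] at hab
            rw [← hab]
            abel
          obtain ⟨h2, h3⟩ := huniq a2 ha2A b2 hb2B h1
          have h4 : e + b' = 0 := by
            rw [← ha2, h2]
            simp
          obtain ⟨h5, h6⟩ := huniq e heA b' hb'B h4
          refine ⟨?_, h6⟩
          rw [← hb2, h3, h5]
          simp
      have := ih A' B' (by omega) h0A' h0B' huniq'
      have h2 := Finset.card_le_card hsub
      omega
    · push Not at hB1
      have hBeq : B = {0} := by
        ext x
        simp only [Finset.mem_singleton]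
        exact ⟨fun hx => hB1 x hx, fun hx => hx ▸ h0B⟩
      subst hBeq
      simp

theorem result {G : Type*} [AddCommGroup G] [Fintype G] [DecidableEq G]
    (S : Finset G) (hS : ∀ s ∈ S, -s ∉ S) :
    (∀ x : G, x - x ∉ S) ∧ (∀ x y : G, y - x ∈ S → x - y ∉ S) ∧
    ∀ v : G,
      (Finset.univ.filter (fun u : G => u - v ∈ S)).card ≤
      (Finset.univ.filter (fun w : G => w ≠ v ∧ w - v ∉ S ∧ ∃ u : G, u - v ∈ S ∧ w - u ∈ S)).card := by
  have h0S : (0 : G) ∉ S := by
    intro h0
    have := hS 0 h0
    simp [h0] at this
  refine ⟨fun x => by simpa using h0S, ?_, ?_⟩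
  · intro x y hxy hyx
    apply hS _ hxy
    simpa using hyx
  intro v
  set A : Finset G := insert 0 S with hA
  have hAcard : A.card = S.card + 1 := Finset.card_insert_of_notMem h0S
  have huniq : ∀ a ∈ A, ∀ b ∈ A, a + b = 0 → a = 0 ∧ b = 0 := by
    intro a ha b hb hab
    rw [hA, Finset.mem_insert] at ha hb
    rcases ha with ha | ha
    · subst ha
      simp at hab
      exact ⟨rfl, hab⟩
    · rcases hb with hb | hb
      · subst hb
        simp at hab
        exact ⟨hab, rfl⟩
      · exfalso
        apply hS a ha
        have : -a = b := by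
          rw [neg_eq_iff_add_eq_zero]
          exact hab
        rw [this]
        exact hb
  have hk := scherk A.card A A le_rfl (Finset.mem_insert_self _ _) (Finset.mem_insert_self _ _) huniq
  have h1 : (Finset.univ.filter (fun u : G => u - v ∈ S)) = S.image (fun s => s + v) := by
    ext u
    simp only [Finset.mem_filter, Finset.mem_univ, true_and, Finset.mem_image]
    constructor
    · intro hu
      exact ⟨u - v, hu, by simp⟩
    · rintro ⟨s, hs, rfl⟩
      simpa using hs
  have h1c : (Finset.univ.filter (fun u : G => u - v ∈ S)).card = S.card := by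
    rw [h1]
    exact Finset.card_image_of_injective _ (add_left_injective v)
  have h2 : ((A + A) \ A).image (fun s => s + v) ⊆
      (Finset.univ.filter (fun w : G => w ≠ v ∧ w - v ∉ S ∧ ∃ u : G, u - v ∈ S ∧ w - u ∈ S)) := by
    intro w hw
    rw [Finset.mem_image] at hw
    obtain ⟨x, hx, rfl⟩ := hw
    rw [Finset.mem_sdiff, Finset.mem_add] at hx
    obtain ⟨⟨a1, ha1, a2, ha2, rfl⟩, hnot⟩ := hx
    have ha1S : a1 ∈ S := by
      rw [hA, Finset.mem_insert] at ha1
      rcases ha1 with h | h
      · subst h
        simp at hnot
        exact absurd ha2 hnot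
      · exact h
    have ha2S : a2 ∈ S := by
      rw [hA, Finset.mem_insert] at ha2
      rcases ha2 with h | h
      · subst h
        simp at hnot
        exact absurd ha1 hnot
      · exact h
    simp only [Finset.mem_filter, Finset.mem_univ, true_and]
    refine ⟨?_, ?_, a1 + v, by simpa using ha1S, ?_⟩
    · intro h
      apply hnot
      have : a1 + a2 = 0 := by simpa using h
      rw [this]
      exact Finset.mem_insert_self _ _
    · intro h
      apply hnot
      have : a1 + a2 ∈ S := by simpa using h
      exact Finset.mem_insert_of_mem this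
    · have : a1 + a2 + v - (a1 + v) = a2 := by abel
      rw [this]
      exact ha2S
  have h2c := Finset.card_le_card h2
  rw [Finset.card_image_of_injective _ (add_left_injective v)] at h2c
  have h3 : (A + A).card - A.card ≤ ((A + A) \ A).card := Finset.le_card_sdiff _ _
  rw [h1c]
  omega

end Vale.Agent.Results.P038.AbelianCayley
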