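import Mathlib

namespace Vale.Agent.Results.P038.VertexTransitive

open Finset
open scoped Pointwise

lemma int_aux (M d d1 d2 b b1 b2 : ℤ) (hM : 0 < M) (hb : b < M) (hb1 : 0 ≤ b1) (hb1b : b1 ≤ b)
    (hs : b1 + b2 = 2 * b) (hd : 2 * d ≤ d1 + d2) (l1 : M * d1 - b1 ≤ M * d - b)
    (l2 : M * d2 - b2 ≤ M * d - b) : b1 = b := by
  have e2 : M * (2 * d) ≤ M * (d1 + d2) := mul_le_mul_of_nonneg_left hd hM.le
  have e4 : M * (d1 - d) = b1 - b := by
    have : M * (d1 + d2) = M * d1 + M * d2 := by ring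
    have h3 : M * (2 * d) = 2 * (M * d) := by ring
    have h5 : M * (d1 - d) = M * d1 - M * d := by ring
    linarith
  by_contra hneq
  have hlt : b1 - b < 0 := by
    rcases lt_or_eq_of_le hb1b with h | h
    · linarith
    · exact absurd h hneq
  have hneg : d1 - d < 0 := by
    by_contra hcon
    push Not at hcon
    have : 0 ≤ M * (d1 - d) := mul_nonneg hM.le hcon
    linarith
  have hle : d1 - d ≤ -1 := by omega
  have : M * (d1 - d) ≤ M * (-1) := mul_le_mul_of_nonneg_left hle hM.le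
  linarith

lemma int_aux2 (M d d0 b b0 : ℤ) (hM : 0 < M) (hb0 : b0 < M) (hb : 0 ≤ b) (hd : d ≤ 0)
    (l0 : M * d0 - b0 ≤ M * d - b) : d0 ≤ 0 := by
  by_contra hcon
  push Not at hcon
  have h1 : 1 ≤ d0 := by omega
  have h2 : M * 1 ≤ M * d0 := mul_le_mul_of_nonneg_left h1 hM.le
  have h3 : M * d ≤ 0 := mul_nonpos_of_nonneg_of_nonpos hM.le hd
  linarith

section Kemperman

variable {G : Type*} [Group G] [Fintype G] [DecidableEq G]

/-- number of representations `1 = a * b` with `a ∈ A`, `b ∈ B`. -/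
def rep (A B : Finset G) : ℕ := (univ.filter (fun g : G => g ∈ A ∧ g⁻¹ ∈ B)).card

def A1 (e : G) (A : Finset G) : Finset G := univ.filter (fun g : G => g ∈ A ∨ g * e⁻¹ ∈ A)
def B1 (e : G) (B : Finset G) : Finset G := univ.filter (fun g : G => g ∈ B ∧ e * g ∈ B)
def A2 (e : G) (A : Finset G) : Finset G := univ.filter (fun g : G => g ∈ A ∧ g * e ∈ A)
def B2 (e : G) (B : Finset G) : Finset G := univ.filter (fun g : G => g ∈ B ∨ e⁻¹ * g ∈ B)

lemma card_as_sum (A : Finset G) : (A.card : ℤ) = ∑ g : G, (if g ∈ A then (1 : ℤ) else 0) := by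
  simp

lemma cardA (e : G) (A : Finset G) :
    ((A1 e A).card : ℤ) + ((A2 e A).card : ℤ) = 2 * (A.card : ℤ) := by
  have h1 : ((A1 e A).card : ℤ) = ∑ g : G, (if (g ∈ A ∨ g * e⁻¹ ∈ A) then (1 : ℤ) else 0) := by
    simp [A1]
  have h2 : ((A2 e A).card : ℤ) = ∑ g : G, (if (g * e⁻¹ ∈ A ∧ g ∈ A) then (1 : ℤ) else 0) := by
    have : ((A2 e A).card : ℤ) = ∑ g : G, (if (g ∈ A ∧ g * e ∈ A) then (1 : ℤ) else 0) := by
      simp [A2]
    rw [this, ← Equiv.sum_comp (Equiv.mulRight e⁻¹)]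
    simp
  have h3 : (A.card : ℤ) = ∑ g : G, (if g * e⁻¹ ∈ A then (1 : ℤ) else 0) := by
    rw [card_as_sum A, ← Equiv.sum_comp (Equiv.mulRight e⁻¹)]
    rfl
  have h4 : 2 * (A.card : ℤ) = (A.card : ℤ) + (A.card : ℤ) := by ring
  rw [h4]
  nth_rewrite 1 [card_as_sum A]
  rw [h3, h1, h2, ← Finset.sum_add_distrib, ← Finset.sum_add_distrib]
  apply Finset.sum_congr rfl
  intro g _
  by_cases p : g ∈ A <;> by_cases q : g * e⁻¹ ∈ A <;> simp [p, q]

lemma cardB (e : G) (B : Finset G) :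
    ((B1 e B).card : ℤ) + ((B2 e B).card : ℤ) = 2 * (B.card : ℤ) := by
  have h1 : ((B2 e B).card : ℤ) = ∑ g : G, (if (g ∈ B ∨ e⁻¹ * g ∈ B) then (1 : ℤ) else 0) := by
    simp [B2]
  have h2 : ((B1 e B).card : ℤ) = ∑ g : G, (if (e⁻¹ * g ∈ B ∧ g ∈ B) then (1 : ℤ) else 0) := by
    have : ((B1 e B).card : ℤ) = ∑ g : G, (if (g ∈ B ∧ e * g ∈ B) then (1 : ℤ) else 0) := by
      simp [B1]
    rw [this, ← Equiv.sum_comp (Equiv.mulLeft e⁻¹)]
    simp
  have h3 : (B.card : ℤ) = ∑ g : G, (if e⁻¹ * g ∈ B then (1 : ℤ) else 0) := by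
    rw [card_as_sum B, ← Equiv.sum_comp (Equiv.mulLeft e⁻¹)]
    rfl
  have h4 : 2 * (B.card : ℤ) = (B.card : ℤ) + (B.card : ℤ) := by ring
  rw [h4]
  nth_rewrite 1 [card_as_sum B]
  rw [h3, h1, h2, ← Finset.sum_add_distrib, ← Finset.sum_add_distrib]
  apply Finset.sum_congr rfl
  intro g _
  by_cases p : g ∈ B <;> by_cases q : e⁻¹ * g ∈ B <;> simp [p, q]

lemma rep_le (e : G) (A B : Finset G) :
    ((rep (A1 e A) (B1 e B) : ℕ) : ℤ) + ((rep (A2 e A) (B2 e B) : ℕ) : ℤ)
      ≤ 2 * ((rep A B : ℕ) : ℤ) := by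
  have h0 : ((rep A B : ℕ) : ℤ) = ∑ g : G, (if (g ∈ A ∧ g⁻¹ ∈ B) then (1 : ℤ) else 0) := by
    simp [rep]
  have h0' : ((rep A B : ℕ) : ℤ)
      = ∑ g : G, (if (g * e⁻¹ ∈ A ∧ e * g⁻¹ ∈ B) then (1 : ℤ) else 0) := by
    rw [h0, ← Equiv.sum_comp (Equiv.mulRight e⁻¹)]
    simp
  have h1 : ((rep (A1 e A) (B1 e B) : ℕ) : ℤ)
      = ∑ g : G, (if ((g ∈ A ∨ g * e⁻¹ ∈ A) ∧ (g⁻¹ ∈ B ∧ e * g⁻¹ ∈ B)) then (1 : ℤ) else 0) := by
    simp [rep, A1, B1]
  have h2 : ((rep (A2 e A) (B2 e B) : ℕ) : ℤ)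
      = ∑ g : G, (if ((g * e⁻¹ ∈ A ∧ g ∈ A) ∧ (e * g⁻¹ ∈ B ∨ g⁻¹ ∈ B)) then (1 : ℤ) else 0) := by
    have : ((rep (A2 e A) (B2 e B) : ℕ) : ℤ)
      = ∑ g : G, (if ((g ∈ A ∧ g * e ∈ A) ∧ (g⁻¹ ∈ B ∨ e⁻¹ * g⁻¹ ∈ B)) then (1 : ℤ) else 0) := by
      simp [rep, A2, B2]
    rw [this, ← Equiv.sum_comp (Equiv.mulRight e⁻¹)]
    simp
  have h4 : 2 * ((rep A B : ℕ) : ℤ) = ((rep A B : ℕ) : ℤ) + ((rep A B : ℕ) : ℤ) := by ring
  rw [h4]
  nth_rewrite 1 [h0]
  rw [h0', h1, h2, ← Finset.sum_add_distrib, ← Finset.sum_add_distrib]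
  apply Finset.sum_le_sum
  intro g _
  by_cases p : g ∈ A <;> by_cases q : g * e⁻¹ ∈ A <;> by_cases r : g⁻¹ ∈ B <;>
    by_cases s : e * g⁻¹ ∈ B <;> simp [p, q, r, s]

lemma prod1 (e : G) (A B : Finset G) : A1 e A * B1 e B ⊆ A * B := by
  intro x hx
  rw [Finset.mem_mul] at hx
  obtain ⟨a, ha, b, hb, rfl⟩ := hx
  simp only [A1, B1, Finset.mem_filter, Finset.mem_univ, true_and] at ha hb
  rcases ha with ha | ha
  · exact Finset.mul_mem_mul ha hb.1
  · have : a * b = (a * e⁻¹) * (e * b) := by group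
    rw [this]
    exact Finset.mul_mem_mul ha hb.2

lemma prod2 (e : G) (A B : Finset G) : A2 e A * B2 e B ⊆ A * B := by
  intro x hx
  rw [Finset.mem_mul] at hx
  obtain ⟨a, ha, b, hb, rfl⟩ := hx
  simp only [A2, B2, Finset.mem_filter, Finset.mem_univ, true_and] at ha hb
  rcases hb with hb | hb
  · exact Finset.mul_mem_mul ha.1 hb
  · have : a * b = (a * e) * (e⁻¹ * b) := by group
    rw [this]
    exact Finset.mul_mem_mul ha.2 hb

/-- the potential -/
def pot (p : Finset G × Finset G) : ℤ :=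
  ((Fintype.card G : ℤ) + 1) *
    ((p.1.card : ℤ) + (p.2.card : ℤ) - ((rep p.1 p.2 : ℕ) : ℤ) - ((p.1 * p.2).card : ℤ))
    - (p.2.card : ℤ)

/-- Kemperman's inequality in an arbitrary finite group. -/
theorem kemperman (A0 B0 : Finset G) (hA0 : (1 : G) ∈ A0) (hB0 : (1 : G) ∈ B0) :
    A0.card + B0.card ≤ (A0 * B0).card + rep A0 B0 := by
  classical
  set P : Finset (Finset G × Finset G) :=
    univ.filter (fun p : Finset G × Finset G => (1 : G) ∈ p.1 ∧ (1 : G) ∈ p.2) with hP
  have hne : P.Nonempty := ⟨(A0, B0), by simp [hP, hA0, hB0]⟩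
  obtain ⟨⟨A, B⟩, hmem, hmax⟩ := Finset.exists_max_image P pot hne
  have hAB : (1 : G) ∈ A ∧ (1 : G) ∈ B := by simpa [hP] using hmem
  obtain ⟨h1A, h1B⟩ := hAB
  have hMpos : (0 : ℤ) < (Fintype.card G : ℤ) + 1 := by positivity
  have hBle : (B.card : ℤ) ≤ (Fintype.card G : ℤ) := by
    exact_mod_cast Finset.card_le_univ B
  -- every e in A ∩ B has its inverse in B
  have hkey : ∀ e ∈ A ∩ B, e ∈ univ.filter (fun g : G => g ∈ A ∧ g⁻¹ ∈ B) := by
    intro e he
    rw [Finset.mem_inter] at he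
    obtain ⟨heA, heB⟩ := he
    have m1 : (A1 e A, B1 e B) ∈ P := by
      simp [hP, A1, B1, h1A, h1B, heB]
    have m2 : (A2 e A, B2 e B) ∈ P := by
      simp [hP, A2, B2, h1A, h1B, heA]
    have l1 := hmax _ m1
    have l2 := hmax _ m2
    have c1 := cardA e A
    have c2 := cardB e B
    have c3 := rep_le e A B
    have c4 : (((A1 e A) * (B1 e B)).card : ℤ) ≤ ((A * B).card : ℤ) := by
      exact_mod_cast Finset.card_le_card (prod1 e A B)
    have c5 : (((A2 e A) * (B2 e B)).card : ℤ) ≤ ((A * B).card : ℤ) := by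
      exact_mod_cast Finset.card_le_card (prod2 e A B)
    have hsubB : B1 e B ⊆ B := by
      intro x hx
      simp only [B1, Finset.mem_filter, Finset.mem_univ, true_and] at hx
      exact hx.1
    have c6 : ((B1 e B).card : ℤ) ≤ (B.card : ℤ) := by
      exact_mod_cast Finset.card_le_card hsubB
    have c7 : (0 : ℤ) ≤ ((B1 e B).card : ℤ) := by positivity
    simp only [pot] at l1 l2
    have hcardeq : ((B1 e B).card : ℤ) = (B.card : ℤ) := by
      refine int_aux _ _ _ _ _ _ _ hMpos (by linarith) c7 c6 c2 ?_ l1 l2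
      linarith
    have hBeq : B1 e B = B := by
      apply Finset.eq_of_subset_of_card_le hsubB
      have : (B.card : ℤ) ≤ ((B1 e B).card : ℤ) := hcardeq.ge
      exact_mod_cast this
    have hmaps : Set.MapsTo (fun x => e * x) (B : Set G) (B : Set G) := by
      intro x hx
      have hx' : x ∈ B1 e B := by rw [hBeq]; exact hx
      simp only [B1, Finset.mem_filter, Finset.mem_univ, true_and] at hx'
      exact hx'.2
    have hinj : Set.InjOn (fun x => e * x) (B : Set G) := by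
      intro x _ y _ hxy
      exact mul_left_cancel hxy
    have hsurj := Finset.surjOn_of_injOn_of_card_le (fun x => e * x) hmaps hinj le_rfl
    obtain ⟨b, hbB, hb⟩ := hsurj h1B
    have hb' : b = e⁻¹ := by
      have : e * b = 1 := hb
      exact eq_inv_of_mul_eq_one_right this
    simp only [Finset.mem_filter, Finset.mem_univ, true_and]
    exact ⟨heA, hb' ▸ hbB⟩
  have hcap : (A ∩ B).card ≤ rep A B := Finset.card_le_card hkey
  have hcup : (A ∪ B).card ≤ (A * B).card := by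
    apply Finset.card_le_card
    intro x hx
    rw [Finset.mem_union] at hx
    rcases hx with hx | hx
    · have := Finset.mul_mem_mul hx h1B
      simpa using this
    · have := Finset.mul_mem_mul h1A hx
      simpa using this
  have hue := Finset.card_union_add_card_inter A B
  have hd0 : (A.card : ℤ) + (B.card : ℤ) - ((rep A B : ℕ) : ℤ) - ((A * B).card : ℤ) ≤ 0 := by
    have : A.card + B.card ≤ (A * B).card + rep A B := by omega
    have : (A.card : ℤ) + (B.card : ℤ) ≤ ((A * B).card : ℤ) + ((rep A B : ℕ) : ℤ) := by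
      exact_mod_cast this
    linarith
  have l0 := hmax (A0, B0) (by simp [hP, hA0, hB0])
  simp only [pot] at l0
  have hB0le : (B0.card : ℤ) ≤ (Fintype.card G : ℤ) := by
    exact_mod_cast Finset.card_le_univ B0
  have hBnn : (0 : ℤ) ≤ (B.card : ℤ) := by positivity
  have hfin : (A0.card : ℤ) + (B0.card : ℤ) - ((rep A0 B0 : ℕ) : ℤ) - ((A0 * B0).card : ℤ) ≤ 0 :=
    int_aux2 _ _ _ _ _ hMpos (by linarith) hBnn hd0 l0
  have : (A0.card : ℤ) + (B0.card : ℤ) ≤ ((A0 * B0).card : ℤ) + ((rep A0 B0 : ℕ) : ℤ) := by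
    linarith
  exact_mod_cast this

/-- Second neighbourhood inequality for Cayley digraphs at the identity. -/
theorem cayley_one (S : Finset G) (hS : ∀ s ∈ S, s⁻¹ ∉ S) :
    S.card ≤ (univ.filter (fun x : G => x ≠ 1 ∧ x ∉ S ∧ ∃ u ∈ S, ∃ t ∈ S, x = u * t)).card := by
  have h1S : (1 : G) ∉ S := by
    intro h
    have := hS 1 h
    simp [h] at this
  set A : Finset G := insert 1 S with hA
  have hAcard : A.card = S.card + 1 := Finset.card_insert_of_notMem h1S
  have hrep : rep A A = 1 := by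
    have : (univ.filter (fun g : G => g ∈ A ∧ g⁻¹ ∈ A)) = {1} := by
      ext g
      simp only [Finset.mem_filter, Finset.mem_univ, true_and, Finset.mem_singleton, hA,
        Finset.mem_insert]
      constructor
      · rintro ⟨h1 | h1, h2 | h2⟩
        · exact h1
        · exact h1
        · exact inv_eq_one.mp h2
        · exact absurd h2 (hS g h1)
      · rintro rfl
        simp
    simp [rep, this]
  have hk := kemperman A A (Finset.mem_insert_self _ _) (Finset.mem_insert_self _ _)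
  rw [hrep] at hk
  have hsub : A ⊆ A * A := by
    intro x hx
    have := Finset.mul_mem_mul hx (Finset.mem_insert_self (1 : G) S)
    simpa using this
  have hsd : ((A * A) \ A).card = (A * A).card - A.card := Finset.card_sdiff_of_subset hsub
  have hle : ((A * A) \ A) ⊆
      univ.filter (fun x : G => x ≠ 1 ∧ x ∉ S ∧ ∃ u ∈ S, ∃ t ∈ S, x = u * t) := by
    intro x hx
    rw [Finset.mem_sdiff, Finset.mem_mul] at hx
    obtain ⟨⟨a, ha, b, hb, rfl⟩, hnot⟩ := hx
    rw [hA, Finset.mem_insert, not_or] at hnot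
    have haS : a ∈ S := by
      rw [hA, Finset.mem_insert] at ha
      rcases ha with h | h
      · exfalso
        subst h
        rw [hA, Finset.mem_insert] at hb
        rcases hb with h' | h'
        · exact hnot.1 (by simp [h'])
        · exact hnot.2 (by simpa using h')
      · exact h
    have hbS : b ∈ S := by
      rw [hA, Finset.mem_insert] at hb
      rcases hb with h | h
      · exfalso
        subst h
        exact hnot.2 (by simpa using haS)
      · exact h
    simp only [Finset.mem_filter, Finset.mem_univ, true_and]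
    exact ⟨hnot.1, hnot.2, a, haS, b, hbS, rfl⟩
  have := Finset.card_le_card hle
  omega

end Kemperman

/-- Cayley version for `Set`/`ncard`. -/
theorem cayley_all (G : Type) [Group G] [Finite G] (S : Set G) (hS : ∀ s ∈ S, s⁻¹ ∉ S) (v : G) :
    {u : G | v⁻¹ * u ∈ S}.ncard ≤
      {w : G | w ≠ v ∧ v⁻¹ * w ∉ S ∧ ∃ u, v⁻¹ * u ∈ S ∧ u⁻¹ * w ∈ S}.ncard := by
  classical
  have : Fintype G := Fintype.ofFinite G
  have key := cayley_one (G := G) (Finset.univ.filter (fun x => x ∈ S)) (by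
    intro s hs
    simp only [Finset.mem_filter, Finset.mem_univ, true_and] at hs ⊢
    exact hS s hs)
  -- left side
  have h1 : {u : G | v⁻¹ * u ∈ S}.ncard = (Finset.univ.filter (fun x : G => x ∈ S)).card := by
    rw [← Set.ncard_coe_finset]
    refine Set.ncard_congr (fun u _ => v⁻¹ * u) ?_ ?_ ?_
    · intro u hu
      simpa using hu
    · intro a b _ _ h
      exact mul_left_cancel h
    · intro b hb
      refine ⟨v * b, ?_, by simp⟩
      simpa using hb
  have h2 : {w : G | w ≠ v ∧ v⁻¹ * w ∉ S ∧ ∃ u, v⁻¹ * u ∈ S ∧ u⁻¹ * w ∈ S}.ncard =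
      (Finset.univ.filter (fun x : G => x ≠ 1 ∧ x ∉ (Finset.univ.filter (fun x : G => x ∈ S)) ∧
        ∃ u ∈ (Finset.univ.filter (fun x : G => x ∈ S)),
          ∃ t ∈ (Finset.univ.filter (fun x : G => x ∈ S)), x = u * t)).card := by
    rw [← Set.ncard_coe_finset]
    refine Set.ncard_congr (fun u _ => v⁻¹ * u) ?_ ?_ ?_
    · intro w hw
      obtain ⟨hw1, hw2, u, hu1, hu2⟩ := hw
      simp only [Finset.coe_filter, Finset.mem_filter, Finset.mem_univ, true_and,
        Set.mem_ofPred_eq]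
      refine ⟨?_, hw2, v⁻¹ * u, hu1, u⁻¹ * w, hu2, by group⟩
      intro h
      apply hw1
      have := congrArg (fun z => v * z) h
      simpa using this
    · intro a b _ _ h
      exact mul_left_cancel h
    · intro b hb
      simp only [Finset.coe_filter, Finset.mem_filter, Finset.mem_univ, true_and,
        Set.mem_ofPred_eq] at hb
      obtain ⟨hb1, hb2, u, hu, t, ht, rfl⟩ := hb
      refine ⟨v * (u * t), ⟨?_, ?_, v * u, ?_, ?_⟩, by simp⟩
      · intro h
        apply hb1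
        have := congrArg (fun z => v⁻¹ * z) h
        simpa using this
      · simpa using hb2
      · simpa using hu
      · have : (v * u)⁻¹ * (v * (u * t)) = t := by group
        rw [this]; exact ht
  rw [h1, h2]
  convert key

/-- Counting preimages when all fibres have the same size. -/
theorem fibre_count {α β : Type} [Fintype α] [Fintype β] [DecidableEq β] (f : α → β) (h : ℕ)
    (hf : ∀ b : β, (Finset.univ.filter (fun a : α => f a = b)).card = h) (T : Set β) :
    {a : α | f a ∈ T}.ncard = h * T.ncard := by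
  classical
  have e1 : {a : α | f a ∈ T} = ((Finset.univ.filter (fun a : α => f a ∈ T) : Finset α) : Set α) := by
    ext a; simp
  have e2 : T = ((Finset.univ.filter (fun b : β => b ∈ T) : Finset β) : Set β) := by
    ext b; simp
  rw [e1, Set.ncard_coe_finset]
  conv_rhs => rw [e2, Set.ncard_coe_finset]
  rw [Finset.card_eq_sum_card_fiberwise (f := f) (s := Finset.univ.filter (fun a : α => f a ∈ T))
    (t := Finset.univ.filter (fun b : β => b ∈ T))]
  · have : ∀ b ∈ Finset.univ.filter (fun b : β => b ∈ T),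
        ((Finset.univ.filter (fun a : α => f a ∈ T)).filter (fun a => f a = b)).card = h := by
      intro b hb
      rw [← hf b]
      congr 1
      ext a
      simp only [Finset.mem_filter, Finset.mem_univ, true_and] at hb ⊢
      constructor
      · exact fun h => h.2
      · intro h
        exact ⟨h ▸ hb, h⟩
    rw [Finset.sum_congr rfl this]
    simp [mul_comm]
  · intro a ha
    simpa using ha

/-- Vertex-transitive version. -/
theorem vt_all (V : Type) [Finite V] (Adj : V → V → Prop)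
    (hanti : ∀ u v, Adj u v → ¬ Adj v u)
    (htrans : ∀ u v, ∃ σ : Equiv.Perm V, (∀ x y, Adj x y ↔ Adj (σ x) (σ y)) ∧ σ u = v) (v : V) :
    {u : V | Adj v u}.ncard ≤
      {w : V | w ≠ v ∧ ¬ Adj v w ∧ ∃ u, Adj v u ∧ Adj u w}.ncard := by
  classical
  have : Fintype V := Fintype.ofFinite V
  -- the automorphism group
  let H : Subgroup (Equiv.Perm V) :=
    { carrier := {σ | ∀ x y, Adj x y ↔ Adj (σ x) (σ y)}
      mul_mem' := by
        intro a b ha hb x y
        rw [Equiv.Perm.mul_apply, Equiv.Perm.mul_apply, ← ha, ← hb]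
      one_mem' := by
        intro x y
        simp
      inv_mem' := by
        intro a ha x y
        have := ha (a⁻¹ x) (a⁻¹ y)
        simp only [Equiv.Perm.coe_inv, Equiv.apply_symm_apply] at this
        simpa using this.symm }
  have hHmem : ∀ g : H, ∀ x y, Adj x y ↔ Adj ((g : Equiv.Perm V) x) ((g : Equiv.Perm V) y) :=
    fun g => g.2
  let S : Set H := {g | Adj v ((g : Equiv.Perm V) v)}
  have hS : ∀ s ∈ S, s⁻¹ ∉ S := by
    intro s hs hs'
    have h1 : Adj v ((s : Equiv.Perm V) v) := hs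
    have h2 : Adj v (((s⁻¹ : H) : Equiv.Perm V) v) := hs'
    have h3 := (hHmem s _ _).1 h2
    simp only [Subgroup.coe_inv, Equiv.Perm.coe_inv, Equiv.apply_symm_apply] at h3
    exact hanti _ _ h1 h3
  have key := cayley_all H S hS 1
  have : Fintype H := Fintype.ofFinite H
  let φ : H → V := fun g => (g : Equiv.Perm V) v
  let h : ℕ := (Finset.univ.filter (fun a : H => φ a = v)).card
  have hpos : 0 < h := by
    apply Finset.card_pos.mpr
    exact ⟨1, by simp [φ]⟩
  have hf : ∀ b : V, (Finset.univ.filter (fun a : H => φ a = b)).card = h := by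
    intro b
    obtain ⟨τ, hτ, hτv⟩ := htrans v b
    let t : H := ⟨τ, hτ⟩
    apply Finset.card_bij (fun a _ => t⁻¹ * a)
    · intro a ha
      simp only [Finset.mem_filter, Finset.mem_univ, true_and, φ] at ha ⊢
      simp only [Subgroup.coe_mul, Subgroup.coe_inv, Equiv.Perm.mul_apply, ha]
      rw [← hτv]
      simp [t]
    · intro a _ b _ hab
      exact mul_left_cancel hab
    · intro c hc
      simp only [Finset.mem_filter, Finset.mem_univ, true_and, φ] at hc
      refine ⟨t * c, ?_, by simp⟩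
      simp only [Finset.mem_filter, Finset.mem_univ, true_and, φ]
      simp only [Subgroup.coe_mul, Equiv.Perm.mul_apply, hc]
      exact hτv
  have c1 := fibre_count φ h hf {u : V | Adj v u}
  have c2 := fibre_count φ h hf {w : V | w ≠ v ∧ ¬ Adj v w ∧ ∃ u, Adj v u ∧ Adj u w}
  have l1 : {u : H | (1 : H)⁻¹ * u ∈ S} = {a : H | φ a ∈ {u : V | Adj v u}} := by
    ext g
    simp [S, φ]
  have l2 : {w : H | w ≠ 1 ∧ (1 : H)⁻¹ * w ∉ S ∧ ∃ u, (1 : H)⁻¹ * u ∈ S ∧ u⁻¹ * w ∈ S} ⊆
      {a : H | φ a ∈ {w : V | w ≠ v ∧ ¬ Adj v w ∧ ∃ u, Adj v u ∧ Adj u w}} := by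
    intro w hw
    obtain ⟨_, hw2, u, hu1, hu2⟩ := hw
    have hw2' : ¬ Adj v ((w : Equiv.Perm V) v) := by
      simpa [S] using hw2
    have hu1' : Adj v ((u : Equiv.Perm V) v) := by
      simpa [S] using hu1
    have hu2' : Adj v (((u⁻¹ * w : H) : Equiv.Perm V) v) := hu2
    have hu3 := (hHmem u _ _).1 hu2'
    simp only [Subgroup.coe_mul, Subgroup.coe_inv, Equiv.Perm.mul_apply, Equiv.Perm.coe_inv,
      Equiv.apply_symm_apply] at hu3
    refine ⟨?_, hw2', (u : Equiv.Perm V) v, hu1', hu3⟩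
    intro hwv
    have hwv' : (w : Equiv.Perm V) v = v := hwv
    rw [hwv'] at hu3
    exact hanti _ _ hu1' hu3
  have l3 := Set.ncard_le_ncard l2 (Set.toFinite _)
  rw [l1, c1] at key
  rw [c2] at l3
  exact Nat.le_of_mul_le_mul_left (key.trans l3) hpos

/-- Seymour's second neighbourhood conjecture holds, at every vertex, for every finite
vertex-transitive oriented graph, and in particular for every Cayley digraph `Cay(G,S)`
(arcs `x → x * s`, `s ∈ S`) of an arbitrary finite group `G` with `S ∩ S⁻¹ = ∅`. -/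
theorem result :
    (∀ (V : Type) [Finite V] (Adj : V → V → Prop),
      (∀ u v, Adj u v → ¬ Adj v u) →
      (∀ u v, ∃ σ : Equiv.Perm V, (∀ x y, Adj x y ↔ Adj (σ x) (σ y)) ∧ σ u = v) →
      ∀ v : V, {u : V | Adj v u}.ncard ≤
        {w : V | w ≠ v ∧ ¬ Adj v w ∧ ∃ u, Adj v u ∧ Adj u w}.ncard) ∧
    (∀ (G : Type) [Group G] [Finite G] (S : Set G), (∀ s ∈ S, s⁻¹ ∉ S) →
      ∀ v : G, {u : G | v⁻¹ * u ∈ S}.ncard ≤
        {w : G | w ≠ v ∧ v⁻¹ * w ∉ S ∧ ∃ u, v⁻¹ * u ∈ S ∧ u⁻¹ * w ∈ S}.ncard) :=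
  ⟨fun V _ Adj hanti htrans v => vt_all V Adj hanti htrans v,
   fun G _ _ S hS v => cayley_all G S hS v⟩

end Vale.Agent.Results.P038.VertexTransitive
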